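import Vale.Agent.Lib.P182.Generic

/-!
# Saturation for `Spin(2n)`: symmetric, half-spin and deep triples in one statement

Weights are written in doubled coordinates (`L = 2 * lam` etc.).  Let `lam`, `mu`, `nu` be
dominant weights of `Spin(2n)`, `n ≥ 2`, with `lam + mu + nu` in the root lattice, and suppose
that

* one of the three weights is a half-spin fundamental weight or a multiple `k * omega_1` of the
  vector weight, or
* one of the three weights is deep relative to another one (`Deep X Y`: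
  `|X k| + |X l| ≤ Y i - |Y j|` for all `i < j` and `k ≠ l`).

Then for every `N ≥ 1`: the multiplicity functions `c` of `V(lam) ⊗ V(mu)` and `cN` of
`V(N lam) ⊗ V(N mu)` exist, are unique, and `cN ((N nu)^*) ≠ 0` implies `c (nu^*) ≠ 0`, where
`^*` is the dual weight.  The number `c (nu^*)` is the dimension of the space of invariants in
`V(lam) ⊗ V(mu) ⊗ V(nu)`.
-/

namespace Vale.Agent.Results.P182.CombinedSaturation

open Vale.Agent.Lib.P182

theorem result (n : ℕ) (hn : 2 ≤ n) (L M Nu : Fin n → ℤ)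
    (hL : Dominant L) (hLw : IsWt L) (hM : Dominant M) (hMw : IsWt M) (hNu : Dominant Nu)
    (hQ : InTwoQ (L + M + Nu))
    (hcase : (∃ X : Fin n → ℤ, (X = L ∨ X = M ∨ X = Nu) ∧ ((∀ i, |X i| = 1) ∨
        (∃ k : ℕ, ∀ i : Fin n, X i = if i.val = 0 then 2 * (k : ℤ) else 0))) ∨
      (Deep L M ∨ Deep M L ∨ Deep L Nu ∨ Deep Nu L ∨ Deep M Nu ∨ Deep Nu M))
    (N : ℕ) (hN : 1 ≤ N) :
    ∃ c cN : (Fin n → ℤ) →₀ ℤ,
      IsTensorMult L M c ∧ (∀ c', IsTensorMult L M c' → c' = c) ∧
      IsTensorMult (N • L) (N • M) cN ∧ (∀ c', IsTensorMult (N • L) (N • M) c' → c' = cN) ∧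
      (cN (dual (N • Nu)) ≠ 0 → c (dual Nu) ≠ 0) := by
  obtain ⟨c, hc⟩ := exists_tensorMult L M hL hLw hMw
  obtain ⟨cN, hcN⟩ := exists_tensorMult (N • L) (N • M) (dominant_smul hL N) (isWt_smul hLw N)
    (isWt_smul hMw N)
  refine ⟨c, cN, hc, fun c' h' => tensorMult_unique h' hc, hcN,
    fun c' h' => tensorMult_unique h' hcN, ?_⟩
  rcases hcase with hsp | hdeep
  · exact sym_sat hn L M Nu hL hLw hM hMw hNu hQ hsp N hN c cN hc hcN
  · exact generic_sat hn L M Nu hL hLw hM hMw hNu hQ hdeep N hN c cN hc hcN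

end Vale.Agent.Results.P182.CombinedSaturation
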