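import Vale.Agent.Lib.P182.GenRel
import Vale.Agent.Lib.P182.RkMono

/-!
# Saturation for `Spin(2n)`: the results of this folder in one statement

Weights are written in doubled coordinates (`L = 2 * lam` etc.).

* (A) Let `lam`, `mu`, `nu` be dominant weights of `Spin(2n)`, `n ≥ 2`, with `lam + mu + nu` in
  the root lattice.  Suppose that one of the three weights is a half-spin fundamental weight or a
  multiple of the vector weight, or that one of them is deep relative to another one, or that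
  for some ordering `(X, Y, Z)` of the three weights the triple `(X, Y, Z^*)` is relatively
  deep.  Then for every `N ≥ 1` the multiplicity functions `c` of `V(lam) ⊗ V(mu)` and `cN` of
  `V(N lam) ⊗ V(N mu)` exist, are unique, and `cN ((N nu)^*) ≠ 0` implies `c (nu^*) ≠ 0`.
* (B) On the facet where the first coordinates add up, tensor product multiplicities of type
  `D_(n+1)` are tensor product multiplicities of type `D_n`.
* (C) The saturation property passes to smaller ranks: if `Spin(2m)` has it, so does `Spin(2n)`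
  for every `2 ≤ n ≤ m`.
-/

namespace Vale.Agent.Results.P182.Omnibus

open Vale.Agent.Lib.P182

theorem result :
    (∀ n : ℕ, 2 ≤ n → ∀ L M Nu : Fin n → ℤ,
      Dominant L → IsWt L → Dominant M → IsWt M → Dominant Nu → InTwoQ (L + M + Nu) →
      ((∃ X : Fin n → ℤ, (X = L ∨ X = M ∨ X = Nu) ∧ ((∀ i, |X i| = 1) ∨
          (∃ k : ℕ, ∀ i : Fin n, X i = if i.val = 0 then 2 * (k : ℤ) else 0))) ∨
        (Deep L M ∨ Deep M L ∨ Deep L Nu ∨ Deep Nu L ∨ Deep M Nu ∨ Deep Nu M) ∨
        (RelDeep L M (dual Nu) ∨ RelDeep M L (dual Nu) ∨ RelDeep L Nu (dual M) ∨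
          RelDeep Nu L (dual M) ∨ RelDeep M Nu (dual L) ∨ RelDeep Nu M (dual L))) →
      ∀ N : ℕ, 1 ≤ N → ∃ c cN : (Fin n → ℤ) →₀ ℤ,
        IsTensorMult L M c ∧ (∀ c', IsTensorMult L M c' → c' = c) ∧
        IsTensorMult (N • L) (N • M) cN ∧ (∀ c', IsTensorMult (N • L) (N • M) c' → c' = cN) ∧
        (cN (dual (N • Nu)) ≠ 0 → c (dual Nu) ≠ 0)) ∧
    (∀ (n : ℕ) (L' M' K' : Fin n → ℤ) (a b : ℤ) (c : (Fin (n + 1) → ℤ) →₀ ℤ)
        (c' : (Fin n → ℤ) →₀ ℤ),
      Dominant (Fin.cons a L' : Fin (n + 1) → ℤ) → Dominant (Fin.cons b M' : Fin (n + 1) → ℤ) →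
      IsTensorMult (Fin.cons a L' : Fin (n + 1) → ℤ) (Fin.cons b M') c →
      IsTensorMult L' M' c' → c (Fin.cons (a + b) K') = c' K') ∧
    (∀ n m : ℕ, 2 ≤ n → n ≤ m → SatProp m → SatProp n) := by
  refine ⟨?_, fun _ L' M' K' a b _ _ hL hM hc hc' => facet_mult L' M' a b hL hM hc hc' K',
    fun n m hn hnm => rank_mono_le n hn m hnm⟩
  intro n hn L M Nu hL hLw hM hMw hNu hQ hcase N hN
  obtain ⟨c, hc⟩ := exists_tensorMult L M hL hLw hMw
  obtain ⟨cN, hcN⟩ := exists_tensorMult (N • L) (N • M) (dominant_smul hL N) (isWt_smul hLw N)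
    (isWt_smul hMw N)
  refine ⟨c, cN, hc, fun c' h' => tensorMult_unique h' hc, hcN,
    fun c' h' => tensorMult_unique h' hcN, ?_⟩
  rcases hcase with hsp | hdeep | hrel
  · exact sym_sat hn L M Nu hL hLw hM hMw hNu hQ hsp N hN c cN hc hcN
  · exact generic_sat hn L M Nu hL hLw hM hMw hNu hQ hdeep N hN c cN hc hcN
  · exact rel_sat hn L M Nu hL hLw hM hMw hNu hQ hrel N hN c cN hc hcN

end Vale.Agent.Results.P182.Omnibus
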