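import Vale.Agent.Lib.P182.RkMono

/-!
# Rank reduction for the saturation problem of `Spin(2n)`

Weights are written in doubled coordinates.

1. On the facet where the first coordinates add up, tensor product multiplicities of type
   `D_(n+1)` are tensor product multiplicities of type `D_n`: the multiplicity of
   `V(a + b, K')` in `V(a, L') ⊗ V(b, M')` equals the multiplicity of `V(K')` in
   `V(L') ⊗ V(M')`.
2. Consequently the saturation property passes to smaller ranks: if `Spin(2m)` has the
   saturation property, so does `Spin(2n)` for every `2 ≤ n ≤ m`.  Equivalently, a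
   counterexample to saturation in rank `n` gives a counterexample in every rank `m ≥ n`.
-/

namespace Vale.Agent.Results.P182.RankReduction

open Vale.Agent.Lib.P182

theorem result :
    (∀ (n : ℕ) (L' M' K' : Fin n → ℤ) (a b : ℤ) (c : (Fin (n + 1) → ℤ) →₀ ℤ)
        (c' : (Fin n → ℤ) →₀ ℤ),
      Dominant (Fin.cons a L' : Fin (n + 1) → ℤ) → Dominant (Fin.cons b M' : Fin (n + 1) → ℤ) →
      IsTensorMult (Fin.cons a L' : Fin (n + 1) → ℤ) (Fin.cons b M') c →
      IsTensorMult L' M' c' → c (Fin.cons (a + b) K') = c' K') ∧
    (∀ n m : ℕ, 2 ≤ n → n ≤ m → SatProp m → SatProp n) :=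
  ⟨fun _ L' M' K' a b _ _ hL hM hc hc' => facet_mult L' M' a b hL hM hc hc' K',
    fun n m hn hnm => rank_mono_le n hn m hnm⟩

end Vale.Agent.Results.P182.RankReduction
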