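import Vale.Agent.Lib.P182.GenRel

/-!
# Saturation for `Spin(2n)`: relatively deep triples

Weights are written in doubled coordinates (`L = 2 * lam` etc.).  A triple `(X, Y, K)` is
relatively deep (`RelDeep X Y K`) if for every `k ≥ 1` and every integer vector `γ` in the hull
of the Weyl orbit of `k X` that lies below `k (K - Y)` in the dominance order, `k Y + γ` is
dominant; in other words `Y + γ` is dominant for every point `γ` of the convex hull of the Weyl
orbit of `X` lying below `K - Y`.  In that regime the multiplicity of `V(K)` in `V(X) ⊗ V(Y)`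
is the multiplicity of the weight `K - Y` in `V(X)`.

Let `lam`, `mu`, `nu` be dominant weights of `Spin(2n)`, `n ≥ 2`, with `lam + mu + nu` in the
root lattice, and suppose that for some ordering `(X, Y, Z)` of the three weights the triple
`(X, Y, Z^*)` is relatively deep.  Then for every `N ≥ 1`: the multiplicity functions `c` of
`V(lam) ⊗ V(mu)` and `cN` of `V(N lam) ⊗ V(N mu)` exist, are unique, and
`cN ((N nu)^*) ≠ 0` implies `c (nu^*) ≠ 0`, where `^*` is the dual weight.  The number
`c (nu^*)` is the dimension of the space of invariants in `V(lam) ⊗ V(mu) ⊗ V(nu)`.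
-/

namespace Vale.Agent.Results.P182.RelativeSaturation

open Vale.Agent.Lib.P182

theorem result (n : ℕ) (hn : 2 ≤ n) (L M Nu : Fin n → ℤ)
    (hL : Dominant L) (hLw : IsWt L) (hM : Dominant M) (hMw : IsWt M) (hNu : Dominant Nu)
    (hQ : InTwoQ (L + M + Nu))
    (hdeep : RelDeep L M (dual Nu) ∨ RelDeep M L (dual Nu) ∨ RelDeep L Nu (dual M) ∨
      RelDeep Nu L (dual M) ∨ RelDeep M Nu (dual L) ∨ RelDeep Nu M (dual L))
    (N : ℕ) (hN : 1 ≤ N) :
    ∃ c cN : (Fin n → ℤ) →₀ ℤ,
      IsTensorMult L M c ∧ (∀ c', IsTensorMult L M c' → c' = c) ∧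
      IsTensorMult (N • L) (N • M) cN ∧ (∀ c', IsTensorMult (N • L) (N • M) c' → c' = cN) ∧
      (cN (dual (N • Nu)) ≠ 0 → c (dual Nu) ≠ 0) := by
  obtain ⟨c, hc⟩ := exists_tensorMult L M hL hLw hMw
  obtain ⟨cN, hcN⟩ := exists_tensorMult (N • L) (N • M) (dominant_smul hL N) (isWt_smul hLw N)
    (isWt_smul hMw N)
  exact ⟨c, cN, hc, fun c' h' => tensorMult_unique h' hc, hcN,
    fun c' h' => tensorMult_unique h' hcN,
    rel_sat hn L M Nu hL hLw hM hMw hNu hQ hdeep N hN c cN hc hcN⟩

end Vale.Agent.Results.P182.RelativeSaturation
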